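import Vale.Agent.P369.FD.Stmts
import Vale.Agent.P369.H124.TopDefs

/-!
P369 (helper903): `S_LIN` of the finite-matrix track gives `LinFin` of helper124's TOP.
-/

set_option linter.all false

namespace Vale.Agent.P369.FD

open Matrix
open Vale.Agent.P369A (Ct)
open scoped Kronecker ComplexOrder

noncomputable section

theorem bsOut_eq_outp (n : ℕ) (η : ℝ) (K : ℕ) (A B : Matrix (Ct n K) (Ct n K) ℂ) :
    Vale.Agent.P369Top.bsOut n η K A B = outp (bsW n η K) A B := by
  ext k k'
  unfold Vale.Agent.P369Top.bsOut outp ptrR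
  rw [Matrix.sum_apply]
  refine Finset.sum_congr rfl fun l _ => ?_
  rw [Matrix.mul_apply, Matrix.mul_apply]
  refine Finset.sum_congr rfl fun y _ => ?_
  rw [Matrix.mul_apply, Matrix.mul_apply]
  rfl

theorem tmp_eq {N : ℝ} (hN : 0 < N) : Vale.Agent.P369Top.tmp N = (bb N)⁻¹ := by
  unfold Vale.Agent.P369Top.tmp bb
  congr 2
  field_simp

/-- the interface between the two tracks -/
theorem linFin_of_S_LIN (h : S_LIN) (n : ℕ) : Vale.Agent.P369Top.LinFin n := by
  intro η NA NB h0 h1 hA hB K A B pA tA pB tB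
  have h1' : 0 < 1 - η := by linarith
  have hM : 0 < η * NA + (1 - η) * NB := by positivity
  have key := h n η NA NB h0 h1 hA hB K A B ⟨pA, tA⟩ ⟨pB, tB⟩
  unfold Vale.Agent.P369Top.LinFinAt
  rw [tmp_eq hM, tmp_eq hA, tmp_eq hB, bsOut_eq_outp, sub_zero]
  have e1 : ∀ x y : ℝ, y⁻¹ * x = x / y := fun x y => by rw [div_eq_mul_inv, mul_comm]
  simp only [e1]
  exact key

end

end Vale.Agent.P369.FD
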