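import Vale.Agent.P369.FD.MainStmts
import Vale.Agent.P369.H688.BS

/-!
P369, FD track: package RAW (helper903): instantiation of VAR, DP, OI, FIRST, SUM, CHAIN at the
Fock matrices.
-/

set_option linter.all false

namespace Vale.Agent.P369.FD

open Matrix
open Vale.Agent.P369 (Conf up down ampn g)
open Vale.Agent.P369A (Ct)
open Vale.Agent.P369.H712 (lm)
open scoped Kronecker ComplexOrder

noncomputable section

section gen

variable {ι ι' κ ε J : Type} [Fintype ι] [DecidableEq ι] [Fintype ι'] [DecidableEq ι']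
  [Fintype κ] [DecidableEq κ] [Fintype ε] [DecidableEq ε] [Fintype J]

/-! ### linearity -/

theorem ptrR_add (S T : Matrix (κ × ε) (κ × ε) ℂ) : ptrR (S + T) = ptrR S + ptrR T := by
  ext k k'; simp [ptrR, Finset.sum_add_distrib]

theorem ptrR_smul (c : ℂ) (T : Matrix (κ × ε) (κ × ε) ℂ) : ptrR (c • T) = c • ptrR T := by
  ext k k'; simp [ptrR, Finset.mul_sum]

theorem ptrL_add (S T : Matrix (κ × ε) (κ × ε) ℂ) : ptrL (S + T) = ptrL S + ptrL T := by
  ext k k'; simp [ptrL, Finset.sum_add_distrib]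

theorem ptrL_smul (c : ℂ) (T : Matrix (κ × ε) (κ × ε) ℂ) : ptrL (c • T) = c • ptrL T := by
  ext k k'; simp [ptrL, Finset.mul_sum]

/-- `EAc` as a linear map -/
def EAl (W : Matrix (κ × ε) (ι × ι') ℂ) (A : Matrix ι ι ℂ) (B : Matrix ι' ι' ℂ) :
    Matrix κ κ ℂ →ₗ[ℂ] Matrix ι ι ℂ where
  toFun := EAc W A B
  map_add' Y Z := by
    unfold EAc EA
    rw [add_kronecker, Matrix.mul_add, Matrix.add_mul, Matrix.mul_add, ptrR_add, Matrix.mul_add,
      trace_add, add_smul]
    abel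
  map_smul' c Z := by
    unfold EAc EA
    rw [smul_kronecker, Matrix.mul_smul, Matrix.smul_mul, Matrix.mul_smul, ptrR_smul,
      Matrix.mul_smul, trace_smul, RingHom.id_apply, smul_sub, smul_smul, smul_eq_mul]

/-- `EBc` as a linear map -/
def EBl (W : Matrix (κ × ε) (ι × ι') ℂ) (A : Matrix ι ι ℂ) (B : Matrix ι' ι' ℂ) :
    Matrix κ κ ℂ →ₗ[ℂ] Matrix ι' ι' ℂ where
  toFun := EBc W A B
  map_add' Y Z := by
    unfold EBc EB
    rw [add_kronecker, Matrix.mul_add, Matrix.add_mul, Matrix.mul_add, ptrL_add, Matrix.mul_add,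
      trace_add, add_smul]
    abel
  map_smul' c Z := by
    unfold EBc EB
    rw [smul_kronecker, Matrix.mul_smul, Matrix.smul_mul, Matrix.mul_smul, ptrL_smul,
      Matrix.mul_smul, trace_smul, RingHom.id_apply, smul_sub, smul_smul, smul_eq_mul]

/-! ### the two GNS forms as `dform` -/

theorem dform_eq_left {A : Matrix ι ι ℂ} (hA : A.IsHermitian) (Z : Matrix ι ι ℂ) :
    dform (fun x _ => x) hA Z = (A * (Z * Zᴴ)).trace.re := by
  set U : Matrix ι ι ℂ := (hA.eigenvectorUnitary : Matrix ι ι ℂ) with hU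
  have hU1 : Uᴴ * U = 1 := by
    have := Matrix.mem_unitaryGroup_iff'.mp hA.eigenvectorUnitary.2
    simpa [star_eq_conjTranspose] using this
  have hU2 : U * Uᴴ = 1 := by
    have := Matrix.mem_unitaryGroup_iff.mp hA.eigenvectorUnitary.2
    simpa [star_eq_conjTranspose] using this
  have hs : A = U * diagonal (fun i => (hA.eigenvalues i : ℂ)) * Uᴴ := by
    have := hA.spectral_theorem
    simpa [Unitary.conjStarAlgAut_apply, star_eq_conjTranspose, Function.comp_def] using this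
  set V := Uᴴ * Z * U with hV
  have h1 : (A * (Z * Zᴴ)).trace = (diagonal (fun i => (hA.eigenvalues i : ℂ)) * (V * Vᴴ)).trace := by
    have e1 : V * Vᴴ = Uᴴ * (Z * Zᴴ) * U := by
      rw [hV, conjTranspose_mul, conjTranspose_mul, conjTranspose_conjTranspose]
      calc Uᴴ * Z * U * (Uᴴ * (Zᴴ * U)) = Uᴴ * Z * (U * Uᴴ) * (Zᴴ * U) := by
            simp only [Matrix.mul_assoc]
        _ = Uᴴ * (Z * Zᴴ) * U := by rw [hU2]; simp only [Matrix.mul_assoc, Matrix.mul_one, Matrix.one_mul]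
    have e2 : (diagonal (fun i => (hA.eigenvalues i : ℂ)) * (V * Vᴴ)).trace =
        (U * diagonal (fun i => (hA.eigenvalues i : ℂ)) * Uᴴ * (Z * Zᴴ)).trace := by
      rw [e1]
      calc (diagonal (fun i => (hA.eigenvalues i : ℂ)) * (Uᴴ * (Z * Zᴴ) * U)).trace
          = ((diagonal (fun i => (hA.eigenvalues i : ℂ)) * (Uᴴ * (Z * Zᴴ))) * U).trace := by
            rw [← Matrix.mul_assoc]
        _ = (U * (diagonal (fun i => (hA.eigenvalues i : ℂ)) * (Uᴴ * (Z * Zᴴ)))).trace :=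
            trace_mul_comm _ _
        _ = _ := by simp only [Matrix.mul_assoc]
    rw [e2, ← hs]
  rw [h1]
  have h2 : ∀ k l, ‖((hA.eigenvectorUnitary : Matrix ι ι ℂ)ᴴ * Z *
      (hA.eigenvectorUnitary : Matrix ι ι ℂ)) k l‖ = ‖V k l‖ := fun k l => rfl
  have h3 : ((diagonal (fun i => (hA.eigenvalues i : ℂ)) * (V * Vᴴ)).trace).re =
      ∑ k, ∑ l, hA.eigenvalues k * ‖V k l‖ ^ 2 := by
    rw [trace, Complex.re_sum]
    refine Finset.sum_congr rfl fun k _ => ?_
    rw [Matrix.diag_apply, diagonal_mul, mul_apply, Finset.mul_sum, Complex.re_sum]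
    refine Finset.sum_congr rfl fun l _ => ?_
    rw [conjTranspose_apply, Complex.star_def, Complex.mul_conj, Complex.normSq_eq_norm_sq]
    norm_cast
  rw [h3]
  rfl

theorem dform_eq_right {A : Matrix ι ι ℂ} (hA : A.IsHermitian) (Z : Matrix ι ι ℂ) :
    dform (fun _ y => y) hA Z = (A * (Zᴴ * Z)).trace.re := by
  have h := dform_eq_left hA Zᴴ
  rw [conjTranspose_conjTranspose] at h
  rw [← h]
  unfold dform
  rw [Finset.sum_comm]
  refine Finset.sum_congr rfl fun k _ => Finset.sum_congr rfl fun l _ => ?_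
  congr 2
  have e : (hA.eigenvectorUnitary : Matrix ι ι ℂ)ᴴ * Zᴴ * (hA.eigenvectorUnitary : Matrix ι ι ℂ) =
      ((hA.eigenvectorUnitary : Matrix ι ι ℂ)ᴴ * Z * (hA.eigenvectorUnitary : Matrix ι ι ℂ))ᴴ := by
    rw [conjTranspose_mul, conjTranspose_mul, conjTranspose_conjTranspose, Matrix.mul_assoc]
  rw [e, conjTranspose_apply, norm_star]

theorem trace_psd_re {A : Matrix ι ι ℂ} (hA : A.PosSemidef) : 0 ≤ A.trace.re := by
  have h := hA.trace_nonneg
  exact (Complex.le_def.mp h).1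

/-! ### exchanging the inputs -/

theorem kron_swap (A : Matrix ι ι ℂ) (B : Matrix ι' ι' ℂ) :
    (B ⊗ₖ A) = (A ⊗ₖ B).submatrix Prod.swap Prod.swap := by
  ext ⟨i, j⟩ ⟨k, l⟩
  simp [kroneckerMap_apply, mul_comm]

theorem EA_sw (W : Matrix (κ × ε) (ι × ι') ℂ) (A : Matrix ι ι ℂ) (Z : Matrix κ κ ℂ) :
    EA (sw W) A Z = EB W A Z := by
  unfold EA EB sw
  have h1 : ((1 : Matrix ι' ι' ℂ) ⊗ₖ A) = ((A ⊗ₖ (1 : Matrix ι' ι' ℂ))).submatrix Prod.swap Prod.swap :=
    kron_swap A 1
  have h2 : (W.submatrix id Prod.swap)ᴴ * (Z ⊗ₖ (1 : Matrix ε ε ℂ)) * W.submatrix id Prod.swap =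
      (Wᴴ * (Z ⊗ₖ (1 : Matrix ε ε ℂ)) * W).submatrix Prod.swap Prod.swap := by
    rw [conjTranspose_submatrix]
    ext i j
    simp [Matrix.mul_apply, submatrix_apply]
  rw [h1, h2]
  have h3 : ∀ (S T : Matrix (ι × ι') (ι × ι') ℂ),
      (S.submatrix Prod.swap Prod.swap : Matrix (ι' × ι) (ι' × ι) ℂ) * T.submatrix Prod.swap Prod.swap =
        (S * T).submatrix Prod.swap Prod.swap := by
    intro S T
    ext i j
    rw [mul_apply, submatrix_apply, mul_apply]
    exact Fintype.sum_equiv (Equiv.prodComm ι' ι) _ _ fun x => rfl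
  rw [h3]
  ext k k'
  simp [ptrR, ptrL]

theorem outp_sw (W : Matrix (κ × ε) (ι × ι') ℂ) (A : Matrix ι ι ℂ) (B : Matrix ι' ι' ℂ) :
    outp (sw W) B A = outp W A B := by
  unfold outp sw
  congr 1
  rw [kron_swap A B, conjTranspose_submatrix]
  ext i j
  rw [mul_apply, mul_apply]
  refine Fintype.sum_equiv (Equiv.prodComm ι' ι) _ _ fun x => ?_
  rw [mul_apply, mul_apply, submatrix_apply, Finset.sum_mul, Finset.sum_mul]
  exact Fintype.sum_equiv (Equiv.prodComm ι' ι) _ _ fun y => rfl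

theorem Split.swap {s t s' t' : ℝ} {a : J → Matrix ι ι ℂ} {b : J → Matrix ι' ι' ℂ}
    {c : J → Matrix κ κ ℂ} {d : J → Matrix ε ε ℂ} {W : Matrix (κ × ε) (ι × ι') ℂ}
    (h : Split s t s' t' a b c d W) : Split t s t' s' b a c d (sw W) where
  row1 := by rw [add_comm]; exact h.row1
  row2 := by rw [add_comm]; exact h.row2
  col1 := h.col2
  col2 := h.col1
  rows := by rw [add_comm]; exact h.rows
  cols := by have := h.cols; linarith [this, mul_comm s t, mul_comm s' t']
  la := h.lb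
  lb := h.la
  lc := h.lc
  ld := h.ld
  iso := by
    have h2 : (sw W)ᴴ * sw W = (Wᴴ * W).submatrix Prod.swap Prod.swap := by
      unfold sw
      rw [conjTranspose_submatrix]
      ext i j
      simp [Matrix.mul_apply]
    rw [h2, h.iso]
    ext ⟨i, j⟩ ⟨k, l⟩
    simp [Matrix.one_apply, and_comm]
  hc := by
    intro j
    have e := congrArg (fun M => M.submatrix id (Prod.swap : ι' × ι → ι × ι')) (h.hc j)
    have e1 : (c j ⊗ₖ (1 : Matrix ε ε ℂ)) * sw W =
        ((c j ⊗ₖ (1 : Matrix ε ε ℂ)) * W).submatrix id Prod.swap := by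
      ext x y; simp [sw, Matrix.mul_apply]
    rw [e1]
    refine e.trans ?_
    ext x y
    simp only [submatrix_apply, id]
    rw [mul_apply, mul_apply]
    refine (Fintype.sum_equiv (Equiv.prodComm ι' ι) _ _ fun z => ?_).symm
    rcases z with ⟨z1, z2⟩
    rcases y with ⟨y1, y2⟩
    simp [sw, kroneckerMap_apply, Matrix.add_apply, Matrix.one_apply]
    left
    ring
  hd := by
    intro j
    have e := congrArg (fun M => M.submatrix id (Prod.swap : ι' × ι → ι × ι')) (h.hd j)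
    have e1 : ((1 : Matrix κ κ ℂ) ⊗ₖ d j) * sw W =
        (((1 : Matrix κ κ ℂ) ⊗ₖ d j) * W).submatrix id Prod.swap := by
      ext x y; simp [sw, Matrix.mul_apply]
    rw [e1]
    refine e.trans ?_
    ext x y
    simp only [submatrix_apply, id]
    rw [mul_apply, mul_apply]
    refine (Fintype.sum_equiv (Equiv.prodComm ι' ι) _ _ fun z => ?_).symm
    rcases z with ⟨z1, z2⟩
    rcases y with ⟨y1, y2⟩
    simp [sw, kroneckerMap_apply, Matrix.add_apply, Matrix.one_apply]
    left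
    ring

end gen

/-! ### Fock matrices -/

theorem fnum_isHermitian {n : ℕ} (X : ℕ) (v : ℕ → ℝ) :
    (fnum (n := n) X v).IsHermitian := by
  unfold fnum
  rw [Matrix.IsHermitian, diagonal_conjTranspose]
  congr 1
  ext k
  simp

theorem pD_eq (n : ℕ) (x lam : ℝ) (D : ℕ) :
    pD n x lam D = ((x : ℝ) : ℂ) • nm (low (n := n) D) +
      ((wD lam D : ℝ) : ℂ) • fnum D (fun k => lam ^ k) := by
  rw [nm_low]
  unfold pD fnum
  rw [← diagonal_smul, ← diagonal_smul, diagonal_add]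
  congr 1
  ext k
  simp

theorem bb_pos {N : ℝ} (hN : 0 < N) : 0 < bb N := by
  unfold bb
  exact Real.log_pos (by have : 0 < 1 / N := by positivity
                         linarith)

/-- package RAW -/
theorem thm_RAW (hBS : S_BS) (hDP : S_DP) (hVAR : S_VAR) (hOI : S_OI) (hFIRST : S_FIRST)
    (hSUM : S_SUM) (hCHAIN : S_CHAIN) : S_RAW := by
  intro n η NA NB δ lam h0 h1 hNA hNB hδ hlam D
  have h1' : 0 < 1 - η := by linarith
  have hMpos : 0 < η * NA + (1 - η) * NB := by positivity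
  have hbM := bb_pos hMpos
  have hbA := bb_pos hNA
  have hbB := bb_pos hNB
  have hs2 : Real.sqrt η ^ 2 = η := Real.sq_sqrt h0.le
  have ht2 : Real.sqrt (1 - η) ^ 2 = 1 - η := Real.sq_sqrt h1'.le
  have hsp := hBS n η h0.le h1.le D
  haveI : Nonempty (Ct n D) := ⟨⟨0, by simp⟩⟩
  have he : 0 < eD D := Real.exp_pos _
  have hPA : (pD n (δ * η) lam D).IsHermitian := fnum_isHermitian _ _
  have hPB : (pD n (δ * (1 - η)) lam D).IsHermitian := fnum_isHermitian _ _
  obtain ⟨A, B, C, hA, hB, hC, trA, trB, hCe, hmin, ⟨lA, elA⟩, ⟨lB, elB⟩, soA, soB⟩ :=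
    hVAR (Ct n D) (Ct n D) (Ct n (2 * D)) (Ct n (2 * D)) (bsW n η D) hsp.iso
      (1 / bb (η * NA + (1 - η) * NB)) ((1 + δ) * η / bb NA) ((1 + δ) * (1 - η) / bb NB) (eD D)
      (by positivity) (by positivity) (by positivity) he (pD n (δ * η) lam D)
      (pD n (δ * (1 - η)) lam D) hPA hPB
  refine ⟨A, B, C, hA, hB, hC, trA, trB, hCe, hmin, ?_⟩
  intro L h hL hh hLg hHB
  have dmA : IsDM A := ⟨hA.posSemidef, trA⟩
  have dmB : IsDM B := ⟨hB.posSemidef, trB⟩
  -- traces against `C`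
  have trC : ∀ Z : Matrix (Ct n (2 * D)) (Ct n (2 * D)) ℂ, Z.PosSemidef →
      (outp (bsW n η D) A B * Z).trace.re ≤ (C * Z).trace.re := by
    intro Z hZ
    rw [hCe, Matrix.add_mul, trace_add, Complex.add_re, Matrix.smul_mul, Matrix.one_mul,
      trace_smul, smul_eq_mul, Complex.re_ofReal_mul]
    have := mul_nonneg he.le (trace_psd_re hZ)
    linarith
  have oi := hOI (Ct n D) (Ct n D) (Ct n (2 * D)) A B C hA hB hC (EAl (bsW n η D) A B)
    (EBl (bsW n η D) A B) η (1 - η) NA NB δ h0 h1' (by ring) hNA hNB hδ.le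
    (fun Z => by
      rw [dform_eq_left, dform_eq_left, dform_eq_left]
      exact ((hDP (Ct n D) (Ct n D) (Ct n (2 * D)) (Ct n (2 * D)) (bsW n η D) hsp.iso A B dmA dmB
        Z).2).trans (trC _ (posSemidef_self_mul_conjTranspose Z)))
    (fun Z => by
      rw [dform_eq_right, dform_eq_right, dform_eq_right]
      exact ((hDP (Ct n D) (Ct n D) (Ct n (2 * D)) (Ct n (2 * D)) (bsW n η D) hsp.iso A B dmA dmB
        Z).1).trans (trC _ (posSemidef_conjTranspose_mul_self Z)))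
    (fun Z => by
      refine (soA Z).trans (le_of_eq ?_)
      congr 1
      field_simp)
    (fun Z => by
      refine (soB Z).trans (le_of_eq ?_)
      congr 1
      field_simp)
  have hQ : (((wD lam D : ℝ) : ℂ) • fnum (n := n) D (fun k => lam ^ k)).IsHermitian := by
    rw [Matrix.IsHermitian, conjTranspose_smul, (fnum_isHermitian (n := n) D _).eq]
    simp
  have fA := hFIRST (Ct n D) (Ct n D) (Ct n (2 * D)) (Ct n (2 * D)) (Fin n) (Real.sqrt η)
    (Real.sqrt (1 - η)) (-Real.sqrt (1 - η)) (Real.sqrt η) (low D) (low D) (low (2 * D))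
    (low (2 * D)) (bsW n η D) hsp A B C hA hB hC trA trB NA (bb (η * NA + (1 - η) * NB)) δ L lA
    (((wD lam D : ℝ) : ℂ) • fnum (n := n) D (fun k => lam ^ k)) hNA hbM hδ.le hL hQ hLg
    (by rw [hs2, ← pD_eq]; exact elA)
  have fB := hFIRST (Ct n D) (Ct n D) (Ct n (2 * D)) (Ct n (2 * D)) (Fin n) (Real.sqrt (1 - η))
    (Real.sqrt η) (Real.sqrt η) (-Real.sqrt (1 - η)) (low D) (low D) (low (2 * D))
    (low (2 * D)) (sw (bsW n η D)) hsp.swap B A C hB hA hC trB trA NB
    (bb (η * NA + (1 - η) * NB)) δ L lB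
    (((wD lam D : ℝ) : ℂ) • fnum (n := n) D (fun k => lam ^ k)) hNB hbM hδ.le hL hQ hLg
    (by rw [ht2, ← pD_eq, EA_sw]; exact elB)
  have sm := hSUM (Ct n D) (Ct n D) (Ct n (2 * D)) (Ct n (2 * D)) (Fin n) (Real.sqrt η)
    (Real.sqrt (1 - η)) (-Real.sqrt (1 - η)) (Real.sqrt η) (low D) (low D) (low (2 * D))
    (low (2 * D)) (bsW n η D) hsp A B dmA dmB NA NB h
    (fun j => ladH (bb (η * NA + (1 - η) * NB)) (low (2 * D) j) C) hNA.le hNB.le hh hHB
  have fB' : (1 + δ) * Real.sqrt (1 - η) ^ 2 * GG NB (low D) B ≤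
      Real.sqrt (1 - η) * ∑ j, ((Xl NB (low D j) B)ᴴ * EB (bsW n η D) A
        (ladH (bb (η * NA + (1 - η) * NB)) (low (2 * D) j) C)).trace.re -
      Real.sqrt η * Real.sqrt (1 - η) *
        ∑ j, (star (A * low D j).trace * (B * low D j).trace).re +
      (((wD lam D : ℝ) : ℂ) • fnum (n := n) D (fun k => lam ^ k) * lind NB (low D) B).trace.re +
      NB * L / bb (η * NA + (1 - η) * NB) * ∑ j, Real.sqrt (B * (low D j * (low D j)ᴴ)).trace.re *
        Real.sqrt (B * tp (low D j)).trace.re := by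
    refine fB.trans (le_of_eq ?_)
    have e1 : ∀ j, (star (B * low D j).trace * (A * low D j).trace).re =
        (star (A * low D j).trace * (B * low D j).trace).re := by
      intro j
      simp only [Complex.star_def, Complex.mul_re, Complex.conj_re, Complex.conj_im]
      ring
    simp only [EA_sw, e1]
    ring
  rw [hs2, ht2] at sm
  have ch := hCHAIN (Ct n D) (Ct n D) (Ct n (2 * D)) (Ct n (2 * D)) (Fin n) (Real.sqrt η)
    (Real.sqrt (1 - η)) (-Real.sqrt (1 - η)) (Real.sqrt η) (low D) (low D) (low (2 * D))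
    (low (2 * D)) (bsW n η D) hsp A B C hA hB hC trA trB NA NB (η * NA + (1 - η) * NB) δ (eD D)
    _ _ _ _ _ _ hNA hNB (by rw [hs2, ht2]) hMpos hδ.le he.le hCe oi rfl fA fB' sm
  rw [hs2, ht2] at ch
  refine ch.trans (le_of_eq ?_)
  rw [Matrix.smul_mul, Matrix.smul_mul, trace_smul, trace_smul, smul_eq_mul, smul_eq_mul,
    Complex.re_ofReal_mul, Complex.re_ofReal_mul]
  try ring

end

end Vale.Agent.P369.FD
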